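import Vale.Agent.P032.R2.H962.SilDefs2

/-!
# P032: the finite statement `Fin2` (states of an `s`-free chord in two directions)

The 178 states with the number of their component are listed in `tab`; constancy along steps and
the closing property are checked by the kernel on pairs of entries, with the help of three small
tables.
-/

set_option autoImplicit false

namespace Vale.Agent.P032.R2.H194

open Vale.Agent.P032.R2.H962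

/-- one state: six masks, two colours, number of the component -/
structure Ent where
  a : ℕ
  b : ℕ
  c : ℕ
  d : ℕ
  e : ℕ
  f : ℕ
  x : ℕ
  y : ℕ
  i : ℕ

/-- the states -/
def tab : List Ent := [
  ⟨18, 5, 18, 5, 18, 5, 3, 3, 13⟩, ⟨18, 5, 18, 5, 18, 9, 3, 3, 13⟩,
  ⟨18, 5, 18, 5, 10, 5, 3, 4, 5⟩, ⟨18, 5, 18, 9, 18, 5, 2, 3, 1⟩,
  ⟨18, 5, 18, 9, 18, 9, 2, 3, 1⟩, ⟨18, 5, 18, 9, 20, 9, 2, 1, 1⟩,
  ⟨18, 5, 18, 9, 20, 9, 2, 3, 1⟩, ⟨18, 5, 10, 5, 18, 5, 3, 3, 13⟩,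
  ⟨18, 5, 10, 5, 18, 9, 3, 3, 13⟩, ⟨18, 5, 10, 5, 10, 5, 3, 4, 5⟩,
  ⟨18, 5, 10, 20, 10, 5, 0, 4, 5⟩, ⟨18, 5, 10, 20, 10, 5, 3, 4, 5⟩,
  ⟨18, 5, 10, 17, 10, 5, 2, 4, 5⟩, ⟨18, 5, 10, 17, 10, 5, 3, 4, 5⟩,
  ⟨18, 9, 18, 5, 18, 5, 3, 2, 7⟩, ⟨18, 9, 18, 5, 18, 9, 3, 2, 7⟩,
  ⟨18, 9, 18, 5, 10, 5, 3, 2, 7⟩, ⟨18, 9, 18, 5, 10, 5, 3, 4, 5⟩,
  ⟨18, 9, 18, 9, 18, 5, 2, 2, 0⟩, ⟨18, 9, 18, 9, 18, 9, 2, 2, 0⟩,
  ⟨18, 9, 18, 9, 20, 9, 2, 1, 1⟩, ⟨18, 9, 20, 10, 20, 9, 0, 1, 8⟩,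
  ⟨18, 9, 20, 10, 20, 9, 2, 1, 1⟩, ⟨18, 9, 20, 9, 18, 5, 2, 2, 0⟩,
  ⟨18, 9, 20, 9, 18, 9, 2, 2, 0⟩, ⟨18, 9, 20, 9, 20, 9, 2, 1, 1⟩,
  ⟨5, 18, 5, 18, 5, 18, 3, 3, 15⟩, ⟨5, 18, 5, 18, 5, 10, 3, 3, 15⟩,
  ⟨5, 18, 5, 18, 9, 18, 3, 2, 10⟩, ⟨5, 18, 5, 10, 5, 18, 4, 3, 14⟩,
  ⟨5, 18, 5, 10, 5, 10, 4, 3, 14⟩, ⟨5, 18, 5, 10, 20, 10, 4, 0, 14⟩,
  ⟨5, 18, 5, 10, 20, 10, 4, 3, 14⟩, ⟨5, 18, 5, 10, 17, 10, 4, 2, 14⟩,
  ⟨5, 18, 5, 10, 17, 10, 4, 3, 14⟩, ⟨5, 18, 9, 18, 5, 18, 3, 3, 15⟩,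
  ⟨5, 18, 9, 18, 5, 10, 3, 3, 15⟩, ⟨5, 18, 9, 18, 9, 18, 3, 2, 10⟩,
  ⟨5, 18, 9, 20, 9, 18, 1, 2, 10⟩, ⟨5, 18, 9, 20, 9, 18, 3, 2, 10⟩,
  ⟨5, 10, 5, 18, 5, 18, 3, 4, 8⟩, ⟨5, 10, 5, 18, 5, 10, 3, 4, 8⟩,
  ⟨5, 10, 5, 18, 9, 18, 3, 2, 10⟩, ⟨5, 10, 5, 18, 9, 18, 3, 4, 8⟩,
  ⟨5, 10, 5, 10, 5, 18, 4, 4, 2⟩, ⟨5, 10, 5, 10, 5, 10, 4, 4, 2⟩,
  ⟨5, 10, 5, 10, 20, 10, 4, 0, 14⟩, ⟨5, 10, 5, 10, 17, 10, 4, 2, 14⟩,
  ⟨5, 10, 20, 10, 5, 18, 4, 4, 2⟩, ⟨5, 10, 20, 10, 5, 10, 4, 4, 2⟩,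
  ⟨5, 10, 20, 10, 20, 10, 4, 0, 14⟩, ⟨5, 10, 20, 10, 17, 10, 4, 2, 14⟩,
  ⟨5, 10, 20, 9, 20, 10, 1, 0, 14⟩, ⟨5, 10, 20, 9, 20, 10, 4, 0, 14⟩,
  ⟨5, 10, 17, 10, 5, 18, 4, 4, 2⟩, ⟨5, 10, 17, 10, 5, 10, 4, 4, 2⟩,
  ⟨5, 10, 17, 10, 20, 10, 4, 0, 14⟩, ⟨5, 10, 17, 10, 17, 10, 4, 2, 14⟩,
  ⟨10, 5, 18, 5, 18, 5, 4, 3, 11⟩, ⟨10, 5, 18, 5, 10, 5, 4, 4, 3⟩,
  ⟨10, 5, 18, 5, 10, 20, 4, 4, 3⟩, ⟨10, 5, 18, 5, 10, 17, 4, 4, 3⟩,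
  ⟨10, 5, 18, 9, 18, 5, 2, 3, 1⟩, ⟨10, 5, 18, 9, 18, 5, 4, 3, 11⟩,
  ⟨10, 5, 10, 5, 18, 5, 4, 3, 11⟩, ⟨10, 5, 10, 5, 10, 5, 4, 4, 3⟩,
  ⟨10, 5, 10, 5, 10, 20, 4, 4, 3⟩, ⟨10, 5, 10, 5, 10, 17, 4, 4, 3⟩,
  ⟨10, 5, 10, 20, 10, 5, 0, 4, 5⟩, ⟨10, 5, 10, 20, 10, 20, 0, 4, 5⟩,
  ⟨10, 5, 10, 20, 10, 17, 0, 4, 5⟩, ⟨10, 5, 10, 20, 9, 20, 0, 1, 5⟩,
  ⟨10, 5, 10, 20, 9, 20, 0, 4, 5⟩, ⟨10, 5, 10, 17, 10, 5, 2, 4, 5⟩,
  ⟨10, 5, 10, 17, 10, 20, 2, 4, 5⟩, ⟨10, 5, 10, 17, 10, 17, 2, 4, 5⟩,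
  ⟨10, 20, 10, 5, 18, 5, 4, 0, 11⟩, ⟨10, 20, 10, 5, 18, 5, 4, 3, 11⟩,
  ⟨10, 20, 10, 5, 10, 5, 4, 0, 11⟩, ⟨10, 20, 10, 5, 10, 20, 4, 0, 11⟩,
  ⟨10, 20, 10, 5, 10, 17, 4, 0, 11⟩, ⟨10, 20, 10, 20, 10, 5, 0, 0, 4⟩,
  ⟨10, 20, 10, 20, 10, 20, 0, 0, 4⟩, ⟨10, 20, 10, 20, 10, 17, 0, 0, 4⟩,
  ⟨10, 20, 10, 20, 9, 20, 0, 1, 5⟩, ⟨10, 20, 10, 17, 10, 5, 2, 0, 11⟩,
  ⟨10, 20, 10, 17, 10, 20, 2, 0, 11⟩, ⟨10, 20, 10, 17, 10, 17, 2, 0, 11⟩,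
  ⟨10, 20, 9, 18, 9, 20, 0, 1, 5⟩, ⟨10, 20, 9, 18, 9, 20, 2, 1, 12⟩,
  ⟨10, 20, 9, 20, 10, 5, 0, 0, 4⟩, ⟨10, 20, 9, 20, 10, 20, 0, 0, 4⟩,
  ⟨10, 20, 9, 20, 10, 17, 0, 0, 4⟩, ⟨10, 20, 9, 20, 9, 20, 0, 1, 5⟩,
  ⟨10, 17, 10, 5, 18, 5, 4, 2, 11⟩, ⟨10, 17, 10, 5, 18, 5, 4, 3, 11⟩,
  ⟨10, 17, 10, 5, 10, 5, 4, 2, 11⟩, ⟨10, 17, 10, 5, 10, 20, 4, 2, 11⟩,
  ⟨10, 17, 10, 5, 10, 17, 4, 2, 11⟩, ⟨10, 17, 10, 20, 10, 5, 0, 2, 5⟩,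
  ⟨10, 17, 10, 20, 10, 20, 0, 2, 5⟩, ⟨10, 17, 10, 20, 10, 17, 0, 2, 5⟩,
  ⟨10, 17, 10, 20, 9, 20, 0, 1, 5⟩, ⟨10, 17, 10, 20, 9, 20, 0, 2, 5⟩,
  ⟨10, 17, 10, 17, 10, 5, 2, 2, 13⟩, ⟨10, 17, 10, 17, 10, 20, 2, 2, 13⟩,
  ⟨10, 17, 10, 17, 10, 17, 2, 2, 13⟩, ⟨20, 10, 5, 18, 5, 10, 0, 4, 8⟩,
  ⟨20, 10, 5, 18, 5, 10, 3, 4, 8⟩, ⟨20, 10, 5, 10, 5, 10, 0, 4, 8⟩,
  ⟨20, 10, 5, 10, 20, 10, 0, 0, 6⟩, ⟨20, 10, 5, 10, 20, 9, 0, 0, 6⟩,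
  ⟨20, 10, 5, 10, 17, 10, 0, 2, 8⟩, ⟨20, 10, 20, 10, 5, 10, 0, 4, 8⟩,
  ⟨20, 10, 20, 10, 20, 10, 0, 0, 6⟩, ⟨20, 10, 20, 10, 20, 9, 0, 0, 6⟩,
  ⟨20, 10, 20, 10, 17, 10, 0, 2, 8⟩, ⟨20, 10, 20, 9, 18, 9, 1, 0, 14⟩,
  ⟨20, 10, 20, 9, 18, 9, 1, 2, 7⟩, ⟨20, 10, 20, 9, 20, 10, 1, 0, 14⟩,
  ⟨20, 10, 20, 9, 20, 9, 1, 0, 14⟩, ⟨20, 10, 17, 10, 5, 10, 0, 4, 8⟩,
  ⟨20, 10, 17, 10, 20, 10, 0, 0, 6⟩, ⟨20, 10, 17, 10, 20, 9, 0, 0, 6⟩,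
  ⟨20, 10, 17, 10, 17, 10, 0, 2, 8⟩, ⟨20, 9, 18, 5, 18, 9, 1, 2, 7⟩,
  ⟨20, 9, 18, 5, 18, 9, 3, 2, 7⟩, ⟨20, 9, 18, 9, 18, 9, 1, 2, 7⟩,
  ⟨20, 9, 18, 9, 20, 10, 1, 1, 15⟩, ⟨20, 9, 18, 9, 20, 9, 1, 1, 15⟩,
  ⟨20, 9, 20, 10, 5, 10, 0, 1, 8⟩, ⟨20, 9, 20, 10, 5, 10, 0, 4, 8⟩,
  ⟨20, 9, 20, 10, 20, 10, 0, 1, 8⟩, ⟨20, 9, 20, 10, 20, 9, 0, 1, 8⟩,
  ⟨20, 9, 20, 10, 17, 10, 0, 1, 8⟩, ⟨20, 9, 20, 10, 17, 10, 0, 2, 8⟩,
  ⟨20, 9, 20, 9, 18, 9, 1, 2, 7⟩, ⟨20, 9, 20, 9, 20, 10, 1, 1, 15⟩,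
  ⟨20, 9, 20, 9, 20, 9, 1, 1, 15⟩, ⟨9, 18, 5, 18, 5, 18, 2, 3, 12⟩,
  ⟨9, 18, 5, 18, 9, 18, 2, 2, 9⟩, ⟨9, 18, 5, 18, 9, 20, 2, 2, 9⟩,
  ⟨9, 18, 5, 10, 5, 18, 2, 3, 12⟩, ⟨9, 18, 5, 10, 5, 18, 4, 3, 14⟩,
  ⟨9, 18, 9, 18, 5, 18, 2, 3, 12⟩, ⟨9, 18, 9, 18, 9, 18, 2, 2, 9⟩,
  ⟨9, 18, 9, 18, 9, 20, 2, 2, 9⟩, ⟨9, 18, 9, 20, 10, 20, 1, 0, 11⟩,
  ⟨9, 18, 9, 20, 10, 20, 1, 2, 10⟩, ⟨9, 18, 9, 20, 9, 18, 1, 2, 10⟩,
  ⟨9, 18, 9, 20, 9, 20, 1, 2, 10⟩, ⟨9, 20, 10, 5, 10, 20, 1, 0, 11⟩,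
  ⟨9, 20, 10, 5, 10, 20, 4, 0, 11⟩, ⟨9, 20, 10, 20, 10, 20, 1, 0, 11⟩,
  ⟨9, 20, 10, 20, 9, 18, 1, 1, 13⟩, ⟨9, 20, 10, 20, 9, 20, 1, 1, 13⟩,
  ⟨9, 20, 10, 17, 10, 20, 1, 0, 11⟩, ⟨9, 20, 10, 17, 10, 20, 2, 0, 11⟩,
  ⟨9, 20, 9, 18, 5, 18, 2, 1, 12⟩, ⟨9, 20, 9, 18, 5, 18, 2, 3, 12⟩,
  ⟨9, 20, 9, 18, 9, 18, 2, 1, 12⟩, ⟨9, 20, 9, 18, 9, 20, 2, 1, 12⟩,
  ⟨9, 20, 9, 20, 10, 20, 1, 0, 11⟩, ⟨9, 20, 9, 20, 9, 18, 1, 1, 13⟩,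
  ⟨9, 20, 9, 20, 9, 20, 1, 1, 13⟩, ⟨17, 10, 5, 18, 5, 10, 2, 4, 8⟩,
  ⟨17, 10, 5, 18, 5, 10, 3, 4, 8⟩, ⟨17, 10, 5, 10, 5, 10, 2, 4, 8⟩,
  ⟨17, 10, 5, 10, 20, 10, 2, 0, 14⟩, ⟨17, 10, 5, 10, 17, 10, 2, 2, 15⟩,
  ⟨17, 10, 20, 10, 5, 10, 2, 4, 8⟩, ⟨17, 10, 20, 10, 20, 10, 2, 0, 14⟩,
  ⟨17, 10, 20, 10, 17, 10, 2, 2, 15⟩, ⟨17, 10, 20, 9, 20, 10, 1, 0, 14⟩,
  ⟨17, 10, 20, 9, 20, 10, 2, 0, 14⟩, ⟨17, 10, 17, 10, 5, 10, 2, 4, 8⟩,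
  ⟨17, 10, 17, 10, 20, 10, 2, 0, 14⟩, ⟨17, 10, 17, 10, 17, 10, 2, 2, 15⟩]

/-- table of the pairs of masks which may be neighbours -/
def nbt : ℕ :=
  0x11f1fff00000000013737ff015757ff177f7fff0000000003173f7f05175f7f177f7fff1117777f177f7fff177f7fff177f7fff00000000033f177f055f177f177f7fff1177177f177f7fff177f7fff177f7fff1717177f177f7fff177f7fff177f7fff177f7fff177f7fff177f7fff177f7fff

/-- table of the available contacts -/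
def avt : ℕ :=
  0x1050d7015ef35dff0415b95bdf475fff7fff

/-- table of the components of the contact graphs -/
def cmt : ℕ :=
  0xfffffffffffffffffffdef45dffffffe7263677b26f79c9059ffffffc5ce7466c64e7163051ba2f7bc5063466824e7141051fffffffbdef079ce0c7ce7041c60e73e3063071820c78c104183def7c1ce7060c60c7063041820e73c1063060820c7041041

/-- two masks may be neighbours -/
def okB (m n : ℕ) : Bool := Nat.beq (Nat.land (Nat.shiftRight nbt (32 * m + n)) 1) 1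

/-- contacts available at a mask -/
def avm (m : ℕ) : ℕ := Nat.land (Nat.shiftRight avt (5 * m)) 31

/-- the component of `x` for the contacts `m` contains `y` -/
def cB (m x y : ℕ) : Bool :=
  Nat.beq (Nat.land (Nat.shiftRight cmt (5 * (5 * m + x) + y)) 1) 1

/-- `x`, `y` may be connected at two places with masks `m`, `n` -/
def dB (m n x y : ℕ) : Bool := cB (Nat.land (avm m) (avm n)) x y

/-- six masks are possible together -/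
def nB (a b c d e f : ℕ) : Bool := okB a b && okB b c && okB c d && okB d e && okB e f && okB f a

/-- step -/
def chk1 (p q : Ent) : Bool :=
  !(nB (Nat.lor p.a q.a) (Nat.lor p.b q.b) (Nat.lor p.c q.c) (Nat.lor p.d q.d)
      (Nat.lor p.e q.e) (Nat.lor p.f q.f)) ||
  (!(dB (Nat.lor p.a q.a) (Nat.lor p.d q.d) p.x q.x) ||
  (!(dB (Nat.lor p.b q.b) (Nat.lor p.e q.e) p.y q.y) || Nat.beq p.i q.i))

/-- closing: `q` is the rotated state -/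
def chk2 (p q : Ent) : Bool :=
  !(Nat.beq q.a p.b) || (!(Nat.beq q.b p.c) || (!(Nat.beq q.c p.d) || (!(Nat.beq q.d p.e) ||
  (!(Nat.beq q.e p.f) || (!(Nat.beq q.f p.a) || (!(Nat.beq q.x p.y) || !(Nat.beq q.i p.i)))))))

/-- all pairs -/
def chk : Bool := tab.all fun p => tab.all fun q => chk1 p q && chk2 p q

set_option maxRecDepth 100000 in
theorem chk_true : chk = true := by decide +kernel

/-- the letters as numbers -/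
def ln (l : ℕ) : ℕ := Nat.land (Nat.shiftRight 0x229a28b2 (5 * l)) 31

/-- bounded quantifier -/
def al : ℕ → (ℕ → Bool) → Bool
  | 0, _ => true
  | n + 1, p => p n && al n p

theorem al_spec {n : ℕ} {p : ℕ → Bool} (h : al n p = true) : ∀ i < n, p i = true := by
  induction n with
  | zero => intro i hi; omega
  | succ n ih =>
    intro i hi
    simp only [al, Bool.and_eq_true] at h
    rcases Nat.lt_succ_iff_lt_or_eq.1 hi with h1 | h1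
    · exact ih h.2 i h1
    · rw [h1]; exact h.1

/-- two letters are disjoint -/
def dj (l m : ℕ) : Bool := Nat.beq (Nat.land (ln l) (ln m)) 0

/-- a colour is in a letter -/
def inl (x l : ℕ) : Bool := Nat.beq (Nat.land (Nat.shiftRight (ln l) x) 1) 1

/-- an entry has these letters and colours -/
def eqE (a b c d e f x y : ℕ) (p : Ent) : Bool :=
  Nat.beq p.a (ln a) && (Nat.beq p.b (ln b) && (Nat.beq p.c (ln c) && (Nat.beq p.d (ln d) &&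
  (Nat.beq p.e (ln e) && (Nat.beq p.f (ln f) && (Nat.beq p.x x && Nat.beq p.y y))))))

/-- all states are in the table -/
def mem : Bool :=
  al 6 fun a => al 6 fun b => !(dj a b) || al 6 fun c => !(dj b c) || al 6 fun d => !(dj c d) ||
  al 6 fun e => !(dj d e) || al 6 fun f => !(dj e f) || (!(dj f a) ||
  al 5 fun x => inl x a || (inl x d || al 5 fun y => inl y b || (inl y e ||
  tab.any (eqE a b c d e f x y))))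

set_option maxRecDepth 100000 in
theorem mem_true : mem = true := by decide +kernel

theorem ln_eq : ∀ l : Fin 6, lm l = ln l.val := by decide +kernel

theorem lm_lt : ∀ l : Fin 6, lm l < 32 := by decide +kernel

theorem dj_of : ∀ l m : Fin 6, (lm l).land (lm m) = 0 → dj l.val m.val = true := by
  decide +kernel

instance (x : Fin 5) (n : ℕ) : Decidable (inm x n) := inferInstanceAs (Decidable (_ = _))

instance (i : Fin 5) (V : ℕ) : Decidable (av i V) := inferInstanceAs (Decidable (∃ _, _))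

theorem inl_of : ∀ (x : Fin 5) (l : Fin 6), ¬ inm x (lm l) → inl x.val l.val = false := by
  decide +kernel

theorem lor_lt {m n : ℕ} (hm : m < 32) (hn : n < 32) : Nat.lor m n < 32 :=
  Nat.or_lt_two_pow (n := 5) hm hn

/-- test of the table of neighbours -/
def okT : Bool := al 32 fun m => al 32 fun n =>
  !(Nat.ble (pc m) 3) || (!(Nat.ble (pc n) 3) ||
  (!(!(Nat.beq (pc m) 3) || (!(Nat.beq (pc n) 3) || Nat.ble (pc (Nat.land m n)) 1)) || okB m n))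

theorem okT_true : okT = true := by decide +kernel

theorem ok_spec (m : ℕ) (hm : m < 32) (n : ℕ) (hn : n < 32) (h1 : pc m ≤ 3) (h2 : pc n ≤ 3)
    (h3 : pc m = 3 → pc n = 3 → pc (Nat.land m n) ≤ 1) : okB m n = true := by
  have h := al_spec (al_spec okT_true m hm) n hn
  have e1 : Nat.ble (pc m) 3 = true := Nat.ble_eq_true_of_le h1
  have e2 : Nat.ble (pc n) 3 = true := Nat.ble_eq_true_of_le h2
  have e3 : (!(Nat.beq (pc m) 3) || (!(Nat.beq (pc n) 3) || Nat.ble (pc (Nat.land m n)) 1)) = true := by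
    rcases hb : Nat.beq (pc m) 3 with _ | _
    · rfl
    · rcases hc : Nat.beq (pc n) 3 with _ | _
      · rfl
      · exact Nat.ble_eq_true_of_le (h3 (Nat.eq_of_beq_eq_true hb) (Nat.eq_of_beq_eq_true hc))
  simp only [e1, e2, e3, Bool.not_true, Bool.false_or] at h
  exact h

theorem av_spec : ∀ m < 32, ∀ i : Fin 5, av i m → (avm m).testBit i.val = true := by
  decide +kernel

theorem avm_lt : ∀ m < 32, avm m < 32 := by decide +kernel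

theorem cB_self : ∀ m < 32, ∀ x : Fin 5, cB m x.val x.val = true := by decide +kernel

theorem cB_step : ∀ m < 32, ∀ x i : Fin 5, m.testBit i.val = true →
    cB m x.val i.val = cB m x.val (i + 1).val := by
  decide +kernel

theorem dB_spec {V V' : ℕ} (hV : V < 32) (hV' : V' < 32) {x y : Fin 5} (h : Cn V V' x y) :
    dB V V' x.val y.val = true := by
  have hlt : Nat.land (avm V) (avm V') < 32 := Nat.and_lt_two_pow (n := 5) _ (avm_lt V' hV')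
  have := h (Finset.univ.filter fun t : Fin 5 => cB (Nat.land (avm V) (avm V')) x.val t.val = true)
    (by
      intro i h1 h2
      have h3 := av_spec V hV i h1
      have h4 := av_spec V' hV' i h2
      have h5 : (Nat.land (avm V) (avm V')).testBit i.val = true := by
        have : (avm V &&& avm V').testBit i.val = true := by
          rw [Nat.testBit_and, h3, h4]; rfl
        exact this
      simp only [Finset.mem_filter, Finset.mem_univ, true_and]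
      rw [cB_step _ hlt x i h5])
    (by simp only [Finset.mem_filter, Finset.mem_univ, true_and]; exact cB_self _ hlt x)
  simp only [Finset.mem_filter, Finset.mem_univ, true_and] at this
  exact this

/-- the state as a test of entries -/
def isE (w : Fin 6 → Fin 6) (κ : Fin 2 → Fin 5) (p : Ent) : Bool :=
  eqE (w 0).val (w 1).val (w 2).val (w 3).val (w 4).val (w 5).val (κ 0).val (κ 1).val p

/-- the number of the component -/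
def inv (w : Fin 6 → Fin 6) (κ : Fin 2 → Fin 5) : ℕ :=
  match tab.find? (isE w κ) with
  | some p => p.i
  | none => 0

/-- the entry of a state -/
structure Is (w : Fin 6 → Fin 6) (κ : Fin 2 → Fin 5) (p : Ent) : Prop where
  a : p.a = lm (w 0)
  b : p.b = lm (w 1)
  c : p.c = lm (w 2)
  d : p.d = lm (w 3)
  e : p.e = lm (w 4)
  f : p.f = lm (w 5)
  x : p.x = (κ 0).val
  y : p.y = (κ 1).val

theorem is_of {w : Fin 6 → Fin 6} {κ : Fin 2 → Fin 5} {p : Ent} (h : isE w κ p = true) :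
    Is w κ p := by
  simp only [isE, eqE, Bool.and_eq_true, Nat.beq_eq, ← ln_eq] at h
  obtain ⟨h1, h2, h3, h4, h5, h6, h7, h8⟩ := h
  exact ⟨h1, h2, h3, h4, h5, h6, h7, h8⟩

theorem any_isE {w : Fin 6 → Fin 6} {κ : Fin 2 → Fin 5} (h : St2 w κ) :
    tab.any (isE w κ) = true := by
  have h0 := mem_true
  have ha := h.leg 0
  have hb := h.leg 1
  have hc := h.leg 2
  have hd := h.leg 3
  have he := h.leg 4
  have hf := h.leg 5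
  have hx := h.kap 0
  have hy := h.kap 1
  have e1 := dj_of _ _ ha
  have e2 := dj_of _ _ hb
  have e3 := dj_of _ _ hc
  have e4 := dj_of _ _ hd
  have e5 := dj_of _ _ he
  have e6 := dj_of _ _ hf
  have x1 := inl_of _ _ hx.1
  have x2 := inl_of _ _ hx.2
  have y1 := inl_of _ _ hy.1
  have y2 := inl_of _ _ hy.2
  have h1 := al_spec h0 _ (w 0).isLt
  have h2 := al_spec h1 _ (w 1).isLt
  have e1' : dj (w 0).val (w 1).val = true := e1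
  have e2' : dj (w 1).val (w 2).val = true := e2
  have e3' : dj (w 2).val (w 3).val = true := e3
  have e4' : dj (w 3).val (w 4).val = true := e4
  have e5' : dj (w 4).val (w 5).val = true := e5
  have e6' : dj (w 5).val (w 0).val = true := e6
  have x1' : inl (κ 0).val (w 0).val = false := x1
  have x2' : inl (κ 0).val (w 3).val = false := x2
  have y1' : inl (κ 1).val (w 1).val = false := y1
  have y2' : inl (κ 1).val (w 4).val = false := y2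
  simp only [e1', Bool.not_true, Bool.false_or] at h2
  have h3 := al_spec h2 _ (w 2).isLt
  simp only [e2', Bool.not_true, Bool.false_or] at h3
  have h4 := al_spec h3 _ (w 3).isLt
  simp only [e3', Bool.not_true, Bool.false_or] at h4
  have h5 := al_spec h4 _ (w 4).isLt
  simp only [e4', Bool.not_true, Bool.false_or] at h5
  have h6 := al_spec h5 _ (w 5).isLt
  simp only [e5', e6', Bool.not_true, Bool.false_or] at h6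
  have h7 := al_spec h6 _ (κ 0).isLt
  simp only [x1', x2', Bool.false_or] at h7
  have h8 := al_spec h7 _ (κ 1).isLt
  simp only [y1', y2', Bool.false_or] at h8
  exact h8

theorem ex_ent {w : Fin 6 → Fin 6} {κ : Fin 2 → Fin 5} (h : St2 w κ) :
    ∃ p ∈ tab, Is w κ p ∧ inv w κ = p.i := by
  have h1 := any_isE h
  rcases hf : tab.find? (isE w κ) with _ | p
  · exfalso
    rw [List.find?_eq_none] at hf
    obtain ⟨p, hp, hp'⟩ := List.any_eq_true.1 h1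
    exact hf p hp hp'
  · refine ⟨p, List.mem_of_find?_eq_some hf, is_of (List.find?_some hf), ?_⟩
    simp only [inv, hf]

theorem chk_spec {p q : Ent} (hp : p ∈ tab) (hq : q ∈ tab) : chk1 p q = true ∧ chk2 p q = true := by
  have h := chk_true
  simp only [chk, List.all_eq_true, Bool.and_eq_true] at h
  exact h p hp q hq

theorem un_lt (w w' : Fin 6 → Fin 6) (k : Fin 6) : un w w' k < 32 := lor_lt (lm_lt _) (lm_lt _)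

theorem nB_of {w w' : Fin 6 → Fin 6} (h : Nb w w') :
    nB (un w w' 0) (un w w' 1) (un w w' 2) (un w w' 3) (un w w' 4) (un w w' 5) = true := by
  have ok : ∀ k : Fin 6, okB (un w w' k) (un w w' (k + 1)) = true := fun k =>
    ok_spec _ (un_lt _ _ _) _ (un_lt _ _ _) (h.1 k) (h.1 (k + 1)) (h.2 k)
  have o0 : okB (un w w' 0) (un w w' 1) = true := ok 0
  have o1 : okB (un w w' 1) (un w w' 2) = true := ok 1
  have o2 : okB (un w w' 2) (un w w' 3) = true := ok 2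
  have o3 : okB (un w w' 3) (un w w' 4) = true := ok 3
  have o4 : okB (un w w' 4) (un w w' 5) = true := ok 4
  have o5 : okB (un w w' 5) (un w w' 0) = true := ok 5
  simp only [nB, o0, o1, o2, o3, o4, o5, Bool.and_self]

theorem fin2 : Fin2 := by
  refine ⟨inv, ?_, ?_⟩
  · intro w w' κ κ' hs hs' hn hd
    obtain ⟨p, hp, ip, ep⟩ := ex_ent hs
    obtain ⟨q, hq, iq, eq⟩ := ex_ent hs'
    have hc := (chk_spec hp hq).1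
    have h0 : dB (un w w' 0) (un w w' 3) (κ 0).val (κ' 0).val = true :=
      dB_spec (un_lt _ _ _) (un_lt _ _ _) (hd 0)
    have h1 : dB (un w w' 1) (un w w' 4) (κ 1).val (κ' 1).val = true :=
      dB_spec (un_lt _ _ _) (un_lt _ _ _) (hd 1)
    have hN := nB_of hn
    simp only [un] at h0 h1 hN
    simp only [chk1, ip.a, ip.b, ip.c, ip.d, ip.e, ip.f, ip.x, ip.y, iq.a, iq.b, iq.c,
      iq.d, iq.e, iq.f, iq.x, iq.y, hN, h0, h1, Bool.not_true, Bool.false_or,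
      Nat.beq_eq] at hc
    rw [ep, eq, hc]
  · intro w κ x hs hs' he
    obtain ⟨p, hp, ip, ep⟩ := ex_ent hs
    obtain ⟨q, hq, iq, eq⟩ := ex_ent hs'
    have hc := (chk_spec hp hq).2
    have ha : q.a = p.b := iq.a.trans ip.b.symm
    have hb : q.b = p.c := iq.b.trans ip.c.symm
    have hcc : q.c = p.d := iq.c.trans ip.d.symm
    have hd : q.d = p.e := iq.d.trans ip.e.symm
    have hee : q.e = p.f := iq.e.trans ip.f.symm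
    have hf : q.f = p.a := iq.f.trans ip.a.symm
    have hx : q.x = p.y := iq.x.trans ip.y.symm
    have hi : q.i = p.i := by rw [← ep, ← eq, he]
    have hr : ∀ n : ℕ, Nat.beq n n = true := Nat.beq_refl
    simp only [chk2, ha, hb, hcc, hd, hee, hf, hx, hi, hr, Bool.not_true, Bool.or_false] at hc
    exact absurd hc (by decide)

end Vale.Agent.P032.R2.H194
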